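import Vale.Agent.P141.Main

/-!
# P141: the trilinear Hilbert transform is unbounded at Hölder tuples with `r < 7/16`
-/

open scoped ENNReal

/-- The tuple `(5/4, 5/4, 5/4, 5/12)` is a Hölder tuple, and the trilinear Hilbert transform is
not bounded at any Hölder tuple `(p₁, p₂, p₃, r)` with `r < 7/16`. -/
theorem Vale.Agent.Results.P141.NotBoundedSmallExponent.result :
    Vale.Agent.P141.IsHolderTuple (5 / 4) (5 / 4) (5 / 4) (5 / 12) ∧
    ∀ p₁ p₂ p₃ r : ℝ≥0∞, Vale.Agent.P141.IsHolderTuple p₁ p₂ p₃ r → r < 7 / 16 →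
      ¬ Vale.Agent.P141.THTBoundedAt p₁ p₂ p₃ r :=
  ⟨Vale.Agent.P141.holder_example, fun _ _ _ _ h hr => Vale.Agent.P141.not_bounded_of_lt h hr⟩
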